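import Vale.Agent.Lib.P141.Cor

open Vale.Agent.Lib.P141

namespace Vale.Agent.Results.P141.A_unbounded_region

theorem result :
    (∀ p₁ p₂ p₃ r : ℝ, 1 < p₁ → 1 < p₂ → 1 < p₃ → 1 / r = 1 / p₁ + 1 / p₂ + 1 / p₃ → r ≤ 7 / 16 →
      ¬ BoundedAt (ENNReal.ofReal p₁) (ENNReal.ofReal p₂) (ENNReal.ofReal p₃) (ENNReal.ofReal r)) ∧
    (∀ p₃ : ℝ, 1 < p₃ → ∃ ε > 0, ∀ p₁ p₂ r : ℝ,
      1 < p₁ → p₁ < 1 + ε → 1 < p₂ → p₂ < 1 + ε → 1 / r = 1 / p₁ + 1 / p₂ + 1 / p₃ →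
      ¬ BoundedAt (ENNReal.ofReal p₁) (ENNReal.ofReal p₂) (ENNReal.ofReal p₃) (ENNReal.ofReal r)) ∧
    (∀ p₂ : ℝ, 1 < p₂ → ∃ ε > 0, ∀ p₁ p₃ r : ℝ,
      1 < p₁ → p₁ < 1 + ε → 1 < p₃ → p₃ < 1 + ε → 1 / r = 1 / p₁ + 1 / p₂ + 1 / p₃ →
      ¬ BoundedAt (ENNReal.ofReal p₁) (ENNReal.ofReal p₂) (ENNReal.ofReal p₃) (ENNReal.ofReal r)) ∧
    (∀ p₁ : ℝ, 1 < p₁ → ∃ ε > 0, ∀ p₂ p₃ r : ℝ,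
      1 < p₂ → p₂ < 1 + ε → 1 < p₃ → p₃ < 1 + ε → 1 / r = 1 / p₁ + 1 / p₂ + 1 / p₃ →
      ¬ BoundedAt (ENNReal.ofReal p₁) (ENNReal.ofReal p₂) (ENNReal.ofReal p₃) (ENNReal.ofReal r)) :=
  ⟨unbounded_small_r, unbounded_corner12, unbounded_corner13, unbounded_corner23⟩

end Vale.Agent.Results.P141.A_unbounded_region
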