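import Vale.Agent.Lib.P141.Main

open Vale.Agent.Lib.P141

namespace Vale.Agent.Results.P141.B_digit_criterion

theorem result (G : Finset (ℤ × ℤ)) (b : ℕ) (hb : 2 ≤ b)
    (hinj : ∀ q ∈ G, ∀ q' ∈ G, (b : ℤ) ∣ q.1 - q'.1 → q = q')
    (p₁ p₂ p₃ r : ℝ) (hp₁ : 1 < p₁) (hp₂ : 1 < p₂) (hp₃ : 1 < p₃)
    (hr : 1 / r = 1 / p₁ + 1 / p₂ + 1 / p₃)
    (hcrit : (b : ℝ) * ((G.image (fun q => q.1 - q.2)).card : ℝ) ^ (1 / p₁) *
        ((G.image (fun q => q.1 - 2 * q.2)).card : ℝ) ^ (1 / p₂) *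
        ((G.image (fun q => q.1 - 3 * q.2)).card : ℝ) ^ (1 / p₃) < (G.card : ℝ) ^ (1 / r)) :
    ¬ BoundedAt (ENNReal.ofReal p₁) (ENNReal.ofReal p₂) (ENNReal.ofReal p₃) (ENNReal.ofReal r) :=
  criterion_aux G b hb hinj p₁ p₂ p₃ r (by linarith) (by linarith) (by linarith) hr hcrit

end Vale.Agent.Results.P141.B_digit_criterion
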